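import Vale.Agent.P327.Main
import Vale.Agent.P327.Oracle

namespace Vale.Agent.Results.P327.Rigidity

open Vale.Agent.P327

/-- The characteristic function of a set of natural numbers, as a total oracle. -/
noncomputable def chi (A : Set ℕ) : ℕ →. ℕ := fun n => Part.some (A.indicator (fun _ => 1) n)

/-- The Turing degrees of subsets of `ℕ`, with the order of Turing reducibility. -/
abbrev Deg : Type :=
  {d : TuringDegree // ∃ A : Set ℕ, d = toAntisymmetrization TuringReducible (chi A)}

theorem chi_eq (x : X) : chi {n | x n = true} = chiB x := by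
  funext n
  unfold chi chiB
  cases h : x n <;> simp [h]

/-- The degree of a binary sequence. -/
noncomputable def mk (x : X) : Deg :=
  ⟨toAntisymmetrization TuringReducible (chiB x), {n | x n = true}, by rw [chi_eq]⟩

theorem mk_le {x y : X} : mk x ≤ mk y ↔ Le x y := le_iff_turingReducible.symm

theorem mk_surj (d : Deg) : ∃ x, mk x = d := by
  classical
  obtain ⟨d, A, rfl⟩ := d
  refine ⟨fun n => decide (n ∈ A), Subtype.ext ?_⟩
  simp only [mk]
  rw [← chi_eq]
  simp

theorem le_apply (π : Deg ≃o Deg) (a : Deg) : a ≤ π a := by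
  choose f hf using fun x : X => mk_surj (π (mk x))
  have h : Aut f := by
    refine ⟨fun x x' => ?_, fun y => ?_⟩
    · rw [← mk_le, hf, hf, π.le_iff_le, mk_le]
    · obtain ⟨x, hx⟩ := mk_surj (π.symm (mk y))
      have : mk (f x) = mk y := by rw [hf, hx, π.apply_symm_apply]
      exact ⟨x, mk_le.1 this.le, mk_le.1 this.ge⟩
  obtain ⟨b, rfl⟩ := mk_surj a
  rw [← hf]
  exact mk_le.2 (h.le_self b)

theorem result (π : Deg ≃o Deg) (a : Deg) : π a = a := by
  refine le_antisymm ?_ (le_apply π a)
  have := le_apply π.symm (π a)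
  rwa [π.symm_apply_apply] at this

end Vale.Agent.Results.P327.Rigidity
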